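import Vale.Agent.P032.S5.H767.RawT

/-!
# P032: cells and branches at a centre

`pt z a + pt z b - z` has distance one from the two points `pt z a`, `pt z b` of `S(z)`: it has no
colour which is present on `S(z)` on both sides of `pt z a` or of `pt z b`.
`sweep` : a connected set of points with the colour `c` does not have points inside and outside the
unit circle about a `c`-partner.
-/

open Set Filter Topology Metric

noncomputable section

namespace Vale.Agent.P032.S5.H343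

open Vale.Agent.P032.Six Vale.Agent.P032.S5.H767

variable {U : Fin 6 → Set ℂ} {T : ℂ → Set (Fin 6)} {z : ℂ}

/-- **Sweep.** -/
theorem sweep (h : Irr U T) {V : Set ℂ} (hV : IsPreconnected V) {c : Fin 6}
    (hc : ∀ v ∈ V, c ∈ T v) {y v1 v2 : ℂ} (h1 : v1 ∈ V) (h2 : v2 ∈ V) (d1 : dist v1 y < 1)
    (d2 : 1 < dist v2 y) : c ∉ Pal U y := by
  intro hy
  have hy' : y ∈ closure (U c) := hy
  have hN : {g | dist v1 g < 1 ∧ 1 < dist v2 g} ∈ 𝓝 y := by
    have e1 : IsOpen {g : ℂ | dist v1 g < 1} := isOpen_lt (by fun_prop) continuous_const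
    have e2 : IsOpen {g : ℂ | 1 < dist v2 g} := isOpen_lt continuous_const (by fun_prop)
    exact (e1.inter e2).mem_nhds ⟨d1, d2⟩
  obtain ⟨g, ⟨g1, g2⟩, hgU⟩ := mem_closure_iff_nhds.1 hy' _ hN
  obtain ⟨v, hv, hvg⟩ := hV.intermediate_value₂ h1 h2 (f := fun v => dist v g)
    (g := fun _ => (1 : ℝ)) (by fun_prop) (by fun_prop) g1.le g2.le
  have hvg : dist v g = 1 := hvg
  exact h.mx.notMem' hgU (by rw [dist_comm]; exact hvg) (h.sub v (hc v hv))

/-- the colour `i` is on `S(z)` near `pt z t` -/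
def Per (T : ℂ → Set (Fin 6)) (z : ℂ) (i : Fin 6) (t : ℝ) : Prop := ∀ᶠ v in 𝓝 t, i ∈ T (pt z v)

/-- the second common point of the unit circles about `pt z a` and `pt z b` -/
def cell (z : ℂ) (a b : ℝ) : ℂ := pt z a + pt z b - z

theorem cell_comm (z : ℂ) (a b : ℝ) : cell z a b = cell z b a := by unfold cell; ring

theorem cell_free (h : Irr U T) {i : Fin 6} {a b : ℝ} (hp : Per T z i a)
    (h1 : cell z a b ≠ z) (h2 : pt z a ≠ pt z b) : i ∉ Pal U (cell z a b) := by
  refine line_free h (dist_pt z a) (ev_circle z hp) (v := cell z a b) ?_ h1 ?_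
  · have := dist_pt z b
    rw [dist_eq_norm] at this ⊢
    rw [← this, ← norm_neg]
    congr 1; unfold cell; ring
  · intro h3
    exact h2 (by unfold cell at h3; linear_combination -h3)

theorem pt_val (z : ℂ) (t : ℝ) (a b : Fin 6) :
    pt z (t + ((a + b : Fin 6).val : ℝ)) = pt z (t + (a.val : ℝ) + (b.val : ℝ)) := by
  have h1 : (a + b : Fin 6).val = (a.val + b.val) % 6 := Fin.val_add a b
  have ha := a.isLt
  have hb := b.isLt
  by_cases h2 : a.val + b.val < 6
  · rw [h1, Nat.mod_eq_of_lt h2]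
    push_cast
    congr 1; ring
  · have h3 : (a.val + b.val) % 6 = a.val + b.val - 6 := by omega
    have h4 : a.val + b.val = (a.val + b.val - 6) + 6 := by omega
    have h5 : ((a.val : ℝ) + (b.val : ℝ)) = ((a.val + b.val - 6 : ℕ) : ℝ) + 6 := by
      rw [← Nat.cast_add, h4]; push_cast; simp
    rw [h1, h3]
    have h6 : t + (a.val : ℝ) + (b.val : ℝ) = (t + ((a.val + b.val - 6 : ℕ) : ℝ)) + 6 := by
      rw [add_assoc, h5]; ring
    rw [h6, pt_six]

theorem pt_opp (z : ℂ) (t : ℝ) (a : Fin 6) :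
    pt z (t + ((a + 3 : Fin 6).val : ℝ)) = 2 * z - pt z (t + (a.val : ℝ)) := by
  rw [pt_val]
  have : ((3 : Fin 6).val : ℝ) = 3 := by norm_num
  rw [this, pt_three]

/-- the two directions of turning -/
def Sgn (τ : ℝ) (s : Fin 6) : Prop := (τ = 1 ∧ s = 1) ∨ (τ = -1 ∧ s = 5)

theorem pt_neg_one (z : ℂ) (t : ℝ) : pt z (t + 5) = pt z (t - 1) := by
  have : t + 5 = (t - 1) + 6 := by ring
  rw [this, pt_six]

theorem pt_s {τ : ℝ} {s : Fin 6} (hs : Sgn τ s) (z : ℂ) (t : ℝ) (j : Fin 6) :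
    pt z (t + ((j + s : Fin 6).val : ℝ)) = pt z (t + (j.val : ℝ) + τ) := by
  rw [pt_val]
  rcases hs with ⟨rfl, rfl⟩ | ⟨rfl, rfl⟩
  · have : ((1 : Fin 6).val : ℝ) = 1 := by norm_num
    rw [this]
  · have : ((5 : Fin 6).val : ℝ) = 5 := by norm_num
    rw [this, pt_neg_one]
    congr 1

theorem pt_s_neg {τ : ℝ} {s : Fin 6} (hs : Sgn τ s) (z : ℂ) (t : ℝ) (j : Fin 6) :
    pt z (t + ((j - s : Fin 6).val : ℝ)) = pt z (t + (j.val : ℝ) - τ) := by
  have h1 : Sgn (-τ) (-s) := by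
    rcases hs with ⟨rfl, rfl⟩ | ⟨rfl, rfl⟩
    · exact Or.inr ⟨rfl, by decide⟩
    · exact Or.inl ⟨by norm_num, by decide⟩
  have := pt_s h1 z t j
  rw [← sub_eq_add_neg, ← sub_eq_add_neg] at this
  exact this

theorem pt_s2 {τ : ℝ} {s : Fin 6} (hs : Sgn τ s) (z : ℂ) (t : ℝ) (j : Fin 6) :
    pt z (t + ((j + 2 * s : Fin 6).val : ℝ)) = pt z (t + (j.val : ℝ) + 2 * τ) := by
  have e : j + 2 * s = (j + s) + s := (by decide : ∀ j s : Fin 6, j + 2 * s = (j + s) + s) j s
  rw [e, pt_s hs]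
  have e2 : t + ((j + s : Fin 6).val : ℝ) + τ = (t + τ) + ((j + s : Fin 6).val : ℝ) := by ring
  rw [e2, pt_s hs]
  congr 1; ring

theorem pt_s2_neg {τ : ℝ} {s : Fin 6} (hs : Sgn τ s) (z : ℂ) (t : ℝ) (j : Fin 6) :
    pt z (t + ((j - 2 * s : Fin 6).val : ℝ)) = pt z (t + (j.val : ℝ) - 2 * τ) := by
  have e : j - 2 * s = (j - s) - s := (by decide : ∀ j s : Fin 6, j - 2 * s = (j - s) - s) j s
  rw [e, pt_s_neg hs]
  have e2 : t + ((j - s : Fin 6).val : ℝ) - τ = (t - τ) + ((j - s : Fin 6).val : ℝ) := by ring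
  rw [e2, pt_s_neg hs]
  congr 1; ring

/-- the cell between the two neighbours -/
theorem cell_nb {τ : ℝ} {s : Fin 6} (hs : Sgn τ s) (z : ℂ) (t : ℝ) (j : Fin 6) :
    cell z (t + ((j + s : Fin 6).val : ℝ)) (t + ((j - s : Fin 6).val : ℝ)) =
      pt z (t + (j.val : ℝ)) := by
  unfold cell
  rw [pt_s hs, pt_s_neg hs]
  have h1 := pt_sum z (t + (j.val : ℝ) - 1)
  have e1 : t + (j.val : ℝ) - 1 + 2 = t + (j.val : ℝ) + 1 := by ring
  have e2 : t + (j.val : ℝ) - 1 + 1 = t + (j.val : ℝ) := by ring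
  rw [e1, e2] at h1
  rcases hs with ⟨rfl, -⟩ | ⟨rfl, -⟩
  · linear_combination h1
  · rw [← sub_eq_add_neg, sub_neg_eq_add]
    linear_combination h1

theorem cell_opp (z : ℂ) (s t : ℝ) (k : Fin 6) :
    cell z (s + (k.val : ℝ)) (t + ((k + 3 : Fin 6).val : ℝ)) =
      z + (pt z (s + (k.val : ℝ)) - pt z (t + (k.val : ℝ))) := by
  unfold cell
  rw [pt_opp]; ring

theorem cis_re' (t : ℝ) : (cis t).re = Real.cos t := by simp [cis, Complex.exp_ofReal_mul_I_re]

theorem cis_im' (t : ℝ) : (cis t).im = Real.sin t := by simp [cis, Complex.exp_ofReal_mul_I_im]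

theorem dist_sq_re_im (a b : ℂ) : dist a b ^ 2 = (a.re - b.re) ^ 2 + (a.im - b.im) ^ 2 := by
  rw [dist_eq_norm, Complex.sq_norm, Complex.normSq_apply]
  simp only [Complex.sub_re, Complex.sub_im]; ring

/-- distance of a branch point to a point of the circle -/
theorem dist_br (z : ℂ) (a b g : ℝ) :
    dist (z + (pt z a - pt z b)) (pt z g) ^ 2 =
      1 + 4 * Real.sin ((a - b) * (Real.pi / 6)) * (Real.sin ((a - b) * (Real.pi / 6)) +
        Real.sin (((a + b) / 2 - g) * (Real.pi / 3))) := by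
  rw [dist_sq_re_im]
  unfold pt
  simp only [Complex.add_re, Complex.sub_re, Complex.add_im, Complex.sub_im, cis_re', cis_im']
  set A := a * (Real.pi / 3) with hA
  set B := b * (Real.pi / 3) with hB
  set G := g * (Real.pi / 3) with hG
  have e1 : (a - b) * (Real.pi / 6) = (A - B) / 2 := by rw [hA, hB]; ring
  have e2 : ((a + b) / 2 - g) * (Real.pi / 3) = (A + B) / 2 - G := by rw [hA, hB, hG]; ring
  rw [e1, e2]
  -- half angles
  set X := (A - B) / 2 with hX
  set M := (A + B) / 2 with hM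
  have hAe : A = M + X := by rw [hM, hX]; ring
  have hBe : B = M - X := by rw [hM, hX]; ring
  rw [hAe, hBe, Real.cos_add, Real.sin_add, Real.cos_sub, Real.sin_sub, Real.sin_sub]
  have h1 := Real.sin_sq_add_cos_sq X
  have h2 := Real.sin_sq_add_cos_sq M
  have h3 := Real.sin_sq_add_cos_sq G
  set sx := Real.sin X
  set cx := Real.cos X
  set sm := Real.sin M
  set cm := Real.cos M
  set sg := Real.sin G
  set cg := Real.cos G
  linear_combination (1 : ℝ) * h3 + 4 * sx ^ 2 * h2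

/-- distance of a cell point to the centre -/
theorem dist_cell (z : ℂ) (a b : ℝ) :
    dist (cell z a b) z ^ 2 = 2 + 2 * Real.cos ((a - b) * (Real.pi / 3)) := by
  rw [dist_sq_re_im]
  unfold cell pt
  simp only [Complex.add_re, Complex.sub_re, Complex.add_im, Complex.sub_im, cis_re', cis_im']
  have e : (a - b) * (Real.pi / 3) = a * (Real.pi / 3) - b * (Real.pi / 3) := by ring
  rw [e, Real.cos_sub]
  have h1 := Real.sin_sq_add_cos_sq (a * (Real.pi / 3))
  have h2 := Real.sin_sq_add_cos_sq (b * (Real.pi / 3))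
  linear_combination h1 + h2

/-- three equally spaced sines -/
theorem three_sin (φ : ℝ) :
    (1 / 2 ≤ Real.sin φ ∨ 1 / 2 ≤ Real.sin (φ + 2 * (Real.pi / 3)) ∨
      1 / 2 ≤ Real.sin (φ + 4 * (Real.pi / 3))) ∧
    (Real.sin φ ≤ -(1 / 2) ∨ Real.sin (φ + 2 * (Real.pi / 3)) ≤ -(1 / 2) ∨
      Real.sin (φ + 4 * (Real.pi / 3)) ≤ -(1 / 2)) := by
  have c2 : Real.cos (2 * (Real.pi / 3)) = -(1 / 2) := by
    have : 2 * (Real.pi / 3) = Real.pi - Real.pi / 3 := by ring
    rw [this, Real.cos_pi_sub, Real.cos_pi_div_three]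
  have s2 : Real.sin (2 * (Real.pi / 3)) = √3 / 2 := by
    have : 2 * (Real.pi / 3) = Real.pi - Real.pi / 3 := by ring
    rw [this, Real.sin_pi_sub, Real.sin_pi_div_three]
  have c4 : Real.cos (4 * (Real.pi / 3)) = -(1 / 2) := by
    have : 4 * (Real.pi / 3) = Real.pi / 3 + Real.pi := by ring
    rw [this, Real.cos_add_pi, Real.cos_pi_div_three]
  have s4 : Real.sin (4 * (Real.pi / 3)) = -(√3 / 2) := by
    have : 4 * (Real.pi / 3) = Real.pi / 3 + Real.pi := by ring
    rw [this, Real.sin_add_pi, Real.sin_pi_div_three]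
  rw [Real.sin_add, Real.sin_add, c2, s2, c4, s4]
  have h1 := Real.sin_sq_add_cos_sq φ
  have h3 : √3 * √3 = 3 := Real.mul_self_sqrt (by norm_num)
  set S := Real.sin φ
  set C := Real.cos φ
  have hr : (√3 * C) ^ 2 = 3 * (1 - S ^ 2) := by
    have : (√3 * C) ^ 2 = (√3 * √3) * C ^ 2 := by ring
    rw [this, h3]; linarith
  set R := √3 * C with hR
  have e1 : S * -(1 / 2) + C * (√3 / 2) = -(S / 2) + R / 2 := by rw [hR]; ring
  have e2 : S * -(1 / 2) + C * -(√3 / 2) = -(S / 2) - R / 2 := by rw [hR]; ring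
  rw [e1, e2]
  constructor
  · by_contra hcon
    push Not at hcon
    obtain ⟨a1, a2, a3⟩ := hcon
    nlinarith [mul_pos (show (0:ℝ) < 1 + S - R by linarith) (show (0:ℝ) < 1 + S + R by linarith)]
  · by_contra hcon
    push Not at hcon
    obtain ⟨a1, a2, a3⟩ := hcon
    nlinarith [mul_pos (show (0:ℝ) < 1 - S - R by linarith) (show (0:ℝ) < 1 - S + R by linarith)]

end Vale.Agent.P032.S5.H343
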