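import Vale.Agent.P032.S5.H343.Side
import Vale.Agent.P032.S5.H220.NoFr

/-!
# P032: no frozen events

Two open sets `A`, `B` of times with `u` in both closures and `closure A ∪ closure B` a neighbourhood of
`u`.  At the times of `A` the colours `x k` are at the position `k`, at the times of `B` the colours
`y k`.  If the two decidable one-sided checks `Dead K x y 1`, `Dead K x y 5` hold, this is impossible.
Consequence: the three classes `Fz (fx i) (fy i)`.
-/

open Set Filter Topology Metric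

noncomputable section

namespace Vale.Agent.P032.S5.H343

open Vale.Agent.P032.Six Vale.Agent.P032.S5.H767

variable {U : Fin 6 → Set ℂ} {T : ℂ → Set (Fin 6)} {z : ℂ} {p : Fin 6 → Fin 6}
  {K : Finset (Fin 6)} {x y : Fin 6 → Finset (Fin 6)}

/-- **One-sided reduction.** -/
theorem one_side {A B : Set ℝ} (hA : IsOpen A) {u : ℝ} (huA : u ∈ closure A) (huB : u ∈ closure B)
    (hcov : ∀ᶠ t in 𝓝 u, t ∈ closure A ∨ t ∈ closure B) :
    ∃ d τ η : ℝ, (τ = 1 ∨ τ = -1) ∧ 0 < η ∧ d ∈ closure B ∧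
      ∀ e ∈ Ioo 0 η, d - τ * e ∈ closure A := by
  obtain ⟨δ, hδ, hball⟩ := Metric.eventually_nhds_iff.1 hcov
  obtain ⟨t, htA, htu⟩ := Metric.mem_closure_iff.1 huA δ hδ
  rw [Real.dist_eq] at htu
  by_cases htB : t ∈ closure B
  · obtain ⟨η, hη, hb⟩ := Metric.isOpen_iff.1 hA t htA
    refine ⟨t, 1, η, Or.inl rfl, hη, htB, fun e he => subset_closure (hb ?_)⟩
    rw [Metric.mem_ball, Real.dist_eq, abs_lt]
    constructor <;> linarith [he.1, he.2]
  have hne : t ≠ u := fun h => htB (h ▸ huB)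
  rcases lt_or_gt_of_ne hne with hlt | hgt
  · set S : Set ℝ := closure B ∩ Icc t u with hS
    have hSc : IsClosed S := isClosed_closure.inter isClosed_Icc
    have hSne : S.Nonempty := ⟨u, huB, hlt.le, le_rfl⟩
    have hSb : BddBelow S := ⟨t, fun s hs => hs.2.1⟩
    have hmem := hSc.csInf_mem hSne hSb
    have hle : ∀ s ∈ S, sInf S ≤ s := fun s hs => csInf_le hSb hs
    have h1 : t < sInf S := lt_of_le_of_ne hmem.2.1 fun h => htB (h ▸ hmem.1)
    have habs : |u - t| = u - t := abs_of_pos (by linarith)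
    refine ⟨sInf S, 1, sInf S - t, Or.inl rfl, by linarith, hmem.1, fun s hs => ?_⟩
    have h2 : sInf S - 1 * s < sInf S := by linarith [hs.1]
    have h3 : t < sInf S - 1 * s := by linarith [hs.2]
    have h4 := hball (y := sInf S - 1 * s) (by
      rw [Real.dist_eq, abs_lt]
      constructor <;> linarith [hmem.2.1, hmem.2.2])
    refine h4.resolve_right fun h5 => ?_
    have := hle _ ⟨h5, h3.le, by linarith [hmem.2.2]⟩
    linarith
  · set S : Set ℝ := closure B ∩ Icc u t with hS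
    have hSc : IsClosed S := isClosed_closure.inter isClosed_Icc
    have hSne : S.Nonempty := ⟨u, huB, le_rfl, hgt.le⟩
    have hSb : BddAbove S := ⟨t, fun s hs => hs.2.2⟩
    have hmem := hSc.csSup_mem hSne hSb
    have hle : ∀ s ∈ S, s ≤ sSup S := fun s hs => le_csSup hSb hs
    have h1 : sSup S < t := lt_of_le_of_ne hmem.2.2 fun h => htB (h ▸ hmem.1)
    have habs : |u - t| = t - u := by rw [abs_sub_comm]; exact abs_of_pos (by linarith)
    refine ⟨sSup S, -1, t - sSup S, Or.inr rfl, by linarith, hmem.1, fun s hs => ?_⟩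
    have h2 : sSup S < sSup S - (-1) * s := by linarith [hs.1]
    have h3 : sSup S - (-1) * s < t := by linarith [hs.2]
    have h4 := hball (y := sSup S - (-1) * s) (by
      rw [Real.dist_eq, abs_lt]
      constructor <;> linarith [hmem.2.1, hmem.2.2])
    refine h4.resolve_right fun h5 => ?_
    have := hle _ ⟨h5, by linarith [hmem.2.1], h3.le⟩
    linarith

/-- a colour at the times of `A` stays at the times of `closure A` -/
theorem clo_mem (h : Irr U T) {A : Set ℝ} {k : Fin 6} {i : Fin 6}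
    (hA : ∀ t ∈ A, i ∈ T (pt z (t + (k.val : ℝ)))) {t : ℝ} (ht : t ∈ closure A) :
    i ∈ T (pt z (t + (k.val : ℝ))) := by
  have hc : IsClosed {t : ℝ | i ∈ T (pt z (t + (k.val : ℝ)))} :=
    (h.closed i).preimage ((continuous_pt z).comp (by fun_prop : Continuous fun t : ℝ => t + (k.val : ℝ)))
  exact closure_minimal (fun t ht => hA t ht) hc ht

/-- a colour at an open set of times -/
theorem per_of {D : Set ℝ} {t : ℝ} {k i : Fin 6} (hD : D ∈ 𝓝 t)
    (h : ∀ v ∈ D, i ∈ T (pt z (v + (k.val : ℝ)))) : Per T z i (t + (k.val : ℝ)) := by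
  have hc : Tendsto (fun v : ℝ => v - (k.val : ℝ)) (𝓝 (t + (k.val : ℝ))) (𝓝 t) := by
    have : Continuous fun v : ℝ => v - (k.val : ℝ) := by fun_prop
    have h2 := this.tendsto (t + (k.val : ℝ))
    rwa [add_sub_cancel_right] at h2
  filter_upwards [hc hD] with v hv
  have := h _ hv
  rwa [sub_add_cancel] at this

/-- **No event.** -/
theorem no_event (h : Irr U T) (hz : z ∈ XX U) (hp : Function.Injective p)
    (hK : ∀ i, i ∈ T z ↔ ∃ m ∈ K, p m = i) (hcl : ∀ q, dist q z = 1 → (T q).ncard ≤ 3)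
    {A B : Set ℝ} (hA : IsOpen A) (hB : IsOpen B) {u : ℝ} (huA : u ∈ closure A) (huB : u ∈ closure B)
    (hcov : ∀ᶠ t in 𝓝 u, t ∈ closure A ∨ t ∈ closure B)
    (hx : ∀ t ∈ A, ∀ k : Fin 6, ∀ i ∈ x k, p i ∈ T (pt z (t + (k.val : ℝ))))
    (hy : ∀ t ∈ B, ∀ k : Fin 6, ∀ i ∈ y k, p i ∈ T (pt z (t + (k.val : ℝ))))
    (h1 : Dead K x y 1) (h5 : Dead K x y 5) : False := by
  obtain ⟨d, τ, η, hτ, hη, hdB, hdA⟩ := one_side hA huA huB hcov
  have hdA' : d ∈ closure A := by
    have hc : Tendsto (fun e : ℝ => d - τ * e) (𝓝[>] (0 : ℝ)) (𝓝 d) := by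
      have : Continuous fun e : ℝ => d - τ * e := by fun_prop
      have h2 := (this.tendsto 0).mono_left (nhdsWithin_le_nhds (s := Ioi (0 : ℝ)))
      rwa [mul_zero, sub_zero] at h2
    exact isClosed_closure.mem_of_tendsto hc
      (Filter.eventually_of_mem (Ioo_mem_nhdsGT hη) fun e he => hdA e he)
  have mx : ∀ t ∈ closure A, ∀ k : Fin 6, ∀ i ∈ x k, p i ∈ T (pt z (t + (k.val : ℝ))) :=
    fun t ht k i hi => clo_mem h (fun t ht => hx t ht k i hi) ht
  have my : ∀ t ∈ closure B, ∀ k : Fin 6, ∀ i ∈ y k, p i ∈ T (pt z (t + (k.val : ℝ))) :=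
    fun t ht k i hi => clo_mem h (fun t ht => hy t ht k i hi) ht
  have mem : ∀ j : Fin 6, ∀ c ∈ x j ∪ y j, p c ∈ T (pt z (d + (j.val : ℝ))) := by
    intro j c hc
    rcases Finset.mem_union.1 hc with h2 | h2
    · exact mx d hdA' j c h2
    · exact my d hdB j c h2
  have tri : ∀ j : Fin 6, (x j ∪ y j).card = 3 → ∀ i ∈ T (pt z (d + (j.val : ℝ))),
      ∃ m ∈ x j ∪ y j, p m = i := by
    intro j h3 i hi
    have e1 : (((x j ∪ y j).image p : Finset (Fin 6)) : Set (Fin 6)) = T (pt z (d + (j.val : ℝ))) := by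
      refine Set.eq_of_subset_of_ncard_le ?_ ?_ (Set.toFinite _)
      · intro m hm
        rw [Finset.mem_coe, Finset.mem_image] at hm
        obtain ⟨c, hc, rfl⟩ := hm
        exact mem j c hc
      · rw [Set.ncard_coe_finset, Finset.card_image_of_injective _ hp, h3]
        exact hcl _ (dist_pt z _)
    rw [← e1, Finset.mem_coe, Finset.mem_image] at hi
    exact hi
  have perx : ∀ᶠ e in 𝓝[>] (0 : ℝ), ∀ k : Fin 6, ∀ i ∈ x k,
      Per T z (p i) (d - τ * e + (k.val : ℝ)) := by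
    filter_upwards [Ioo_mem_nhdsGT hη] with e he k i hi
    refine per_of (D := closure A) ?_ fun v hv => mx v hv k i hi
    rcases hτ with rfl | rfl
    · have ho : Ioo (d - η) d ∈ 𝓝 (d - 1 * e) :=
        Ioo_mem_nhds (by linarith [he.2]) (by linarith [he.1])
      filter_upwards [ho] with v hv
      have := hdA (d - v) ⟨by linarith [hv.2], by linarith [hv.1]⟩
      rwa [one_mul, sub_sub_cancel] at this
    · have ho : Ioo d (d + η) ∈ 𝓝 (d - (-1) * e) :=
        Ioo_mem_nhds (by linarith [he.1]) (by linarith [he.2])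
      filter_upwards [ho] with v hv
      have := hdA (v - d) ⟨by linarith [hv.1], by linarith [hv.2]⟩
      have e1 : d - -1 * (v - d) = v := by ring
      rwa [e1] at this
  have pery : ∃ᶠ b in 𝓝 d, ∀ k : Fin 6, ∀ i ∈ y k, Per T z (p i) (b + (k.val : ℝ)) := by
    have h2 : ∃ᶠ b in 𝓝 d, b ∈ B := mem_closure_iff_frequently.1 hdB
    refine h2.mono fun b hb k i hi => ?_
    exact per_of (D := B) (hB.mem_nhds hb) fun v hv => hy v hv k i hi
  rcases hτ with rfl | rfl
  · exact Side.false (K := K) (s := 1) ⟨h, hz, hK, Or.inl ⟨rfl, rfl⟩, mem, tri, perx, pery⟩ h1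
  · exact Side.false (K := K) (s := 5) ⟨h, hz, hK, Or.inr ⟨rfl, rfl⟩, mem, tri, perx, pery⟩ h5

end Vale.Agent.P032.S5.H343

namespace Vale.Agent.P032.S5.H343

open Vale.Agent.P032.Six Vale.Agent.P032.Words Vale.Agent.P032.S5.H122
  Vale.Agent.P032.Words.Pent Vale.Agent.P032.S5.H220

/-- the colours of a hexagon of letters -/
def hxs (h : Fin 6 → Fin 6) : Fin 6 → Finset (Fin 6) := fun k => ixs (h k)

/-- **Frozen events of a clean five coloured centre**: the decidable check. -/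
theorem fz_of_dead {x y : Fin 6 → Fin 6} (h1 : Dead {0, 1, 2, 3, 4} (hxs x) (hxs y) 1)
    (h5 : Dead {0, 1, 2, 3, 4} (hxs x) (hxs y) 5) : Fz x y := by
  intro U T z e C u A B hA hB huA huB hcov hx hy
  refine no_event (p := e) (K := {0, 1, 2, 3, 4}) C.irr C.mem_XX C.inj ?_ C.clean hA hB huA huB hcov
    (fun t ht k i hi => hx t ht k ⟨i, hi, rfl⟩) (fun t ht k i hi => hy t ht k ⟨i, hi, rfl⟩) h1 h5
  have hb : Function.Bijective e := Finite.injective_iff_bijective.1 C.inj
  intro i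
  obtain ⟨l, rfl⟩ := hb.2 i
  have e2 : ∀ l : Fin 6, (∃ m ∈ ({0, 1, 2, 3, 4} : Finset (Fin 6)), m = l) ↔ l ≠ 5 := by decide
  rw [C.pal, ← e2]
  constructor
  · rintro ⟨m, hm, rfl⟩; exact ⟨m, hm, rfl⟩
  · rintro ⟨m, hm, h⟩; exact ⟨m, hm, hb.1 h⟩

/-- **(I), (II), (A).** -/
theorem fz_all (i : Fin 3) : Fz (fx i) (fy i) := by
  have h : ∀ i : Fin 3, Dead {0, 1, 2, 3, 4} (hxs (fx i)) (hxs (fy i)) 1 ∧
      Dead {0, 1, 2, 3, 4} (hxs (fx i)) (hxs (fy i)) 5 := by decide +kernel
  exact fz_of_dead (h i).1 (h i).2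

end Vale.Agent.P032.S5.H343
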