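import Vale.Agent.P032.S5.H343.Cell

/-!
# P032: one-sided events on the circle of a centre

Six positions `k` (60 degrees apart).  Before the time `d` (in the direction `τ`) the colours `x k` are
on `S(z)` at the position `k`; the colours `y k` are there at times arbitrarily near `d`.
`Dead K x y s` is a decidable condition; `Side.false` : it never happens.
-/

open Set Filter Topology Metric

noncomputable section

namespace Vale.Agent.P032.S5.H343

open Vale.Agent.P032.Six Vale.Agent.P032.S5.H767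

/-- the colours of the outer cell at the position `j` -/
def outC (x y : Fin 6 → Finset (Fin 6)) (s j : Fin 6) : Finset (Fin 6) :=
  (x j ∪ y j) \ (x (j + s) ∪ y (j - s))

/-- the colours of the inner cell at the position `j` -/
def inC (x y : Fin 6 → Finset (Fin 6)) (s j : Fin 6) : Finset (Fin 6) :=
  (x j ∪ y j) \ (x (j - s) ∪ y (j + s))

/-- the colour `c` is excluded on the branch `k` -/
def exc (x y : Fin 6 → Finset (Fin 6)) (s k c : Fin 6) : Prop :=
  ∃ j, (x j ∪ y j).card = 3 ∧ ((outC x y s j = {c} ∧ (k = j + s ∨ k = j + 2 * s)) ∨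
    (inC x y s j = {c} ∧ (k = j - s ∨ k = j - 2 * s)))

instance (x y : Fin 6 → Finset (Fin 6)) (s k c : Fin 6) : Decidable (exc x y s k c) := by
  unfold exc; infer_instance

/-- the colours of the branch `k` -/
def br (K : Finset (Fin 6)) (x y : Fin 6 → Finset (Fin 6)) (s k : Fin 6) : Finset (Fin 6) :=
  (K \ (x k ∪ y (k + 3))).filter fun c => ¬ exc x y s k c

/-- the event is impossible -/
def Dead (K : Finset (Fin 6)) (x y : Fin 6 → Finset (Fin 6)) (s : Fin 6) : Prop :=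
  (∃ k, br K x y s k = ∅) ∨
  (∃ k c, br K x y s k = {c} ∧ br K x y s (k + 2) = {c} ∧ br K x y s (k + 4) = {c}) ∨
  ∃ j k l c, (k = j + s ∨ k = j + 2 * s) ∧ (l = j - s ∨ l = j - 2 * s) ∧ c ∈ x j ∪ y j ∧
    br K x y s k = {c} ∧ br K x y s l = {c}

instance (K : Finset (Fin 6)) (x y : Fin 6 → Finset (Fin 6)) (s : Fin 6) :
    Decidable (Dead K x y s) := by
  unfold Dead; infer_instance

variable {U : Fin 6 → Set ℂ} {T : ℂ → Set (Fin 6)} {z : ℂ} {p : Fin 6 → Fin 6}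
  {K : Finset (Fin 6)} {x y : Fin 6 → Finset (Fin 6)} {d τ : ℝ} {s : Fin 6}

/-- a one-sided event -/
structure Side (U : Fin 6 → Set ℂ) (T : ℂ → Set (Fin 6)) (z : ℂ) (p : Fin 6 → Fin 6)
    (K : Finset (Fin 6)) (x y : Fin 6 → Finset (Fin 6)) (d τ : ℝ) (s : Fin 6) : Prop where
  irr : Irr U T
  xx : z ∈ XX U
  pal : ∀ i, i ∈ T z ↔ ∃ m ∈ K, p m = i
  sgn : Sgn τ s
  mem : ∀ j : Fin 6, ∀ c ∈ x j ∪ y j, p c ∈ T (pt z (d + (j.val : ℝ)))
  tri : ∀ j : Fin 6, (x j ∪ y j).card = 3 → ∀ i ∈ T (pt z (d + (j.val : ℝ))),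
    ∃ m ∈ x j ∪ y j, p m = i
  perx : ∀ᶠ e in 𝓝[>] (0 : ℝ), ∀ k : Fin 6, ∀ i ∈ x k, Per T z (p i) (d - τ * e + (k.val : ℝ))
  pery : ∃ᶠ b in 𝓝 d, ∀ k : Fin 6, ∀ i ∈ y k, Per T z (p i) (b + (k.val : ℝ))

/-- the branch -/
def brn (z : ℂ) (d τ : ℝ) (a b : Fin 6) (e : ℝ) : ℂ := cell z (d - τ * e + (a.val : ℝ)) (d + (b.val : ℝ))

theorem continuous_brn (z : ℂ) (d τ : ℝ) (a b : Fin 6) : Continuous (brn z d τ a b) := by
  unfold brn cell
  have h1 : Continuous fun e : ℝ => pt z (d - τ * e + (a.val : ℝ)) :=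
    (continuous_pt z).comp (by fun_prop)
  exact (h1.add continuous_const).sub continuous_const

theorem continuous_brn' (z : ℂ) (a : ℝ) (l : Fin 6) : Continuous fun b : ℝ => cell z a (b + (l.val : ℝ)) := by
  unfold cell
  have h1 : Continuous fun b : ℝ => pt z (b + (l.val : ℝ)) := (continuous_pt z).comp (by fun_prop)
  exact (continuous_const.add h1).sub continuous_const

theorem pt_eq' {z : ℂ} {u V : ℝ} (h : pt z u = pt z V) : ∃ n : ℤ, u = V + 6 * n := by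
  have h1 : cis (u * (Real.pi / 3)) = cis (V * (Real.pi / 3)) := by
    unfold pt at h; exact add_left_cancel h
  unfold cis at h1
  obtain ⟨n, hn⟩ := Complex.exp_eq_exp_iff_exists_int.1 h1
  refine ⟨n, ?_⟩
  have h2 := congrArg Complex.im hn
  simp at h2
  have hpi := Real.pi_pos
  have h4 : u * (Real.pi / 3) = (V + 6 * n) * (Real.pi / 3) := by
    rw [h2]; ring
  exact mul_right_cancel₀ (by positivity) h4

theorem pt_ne {z : ℂ} {u V : ℝ} (h1 : u ≠ V) (h2 : |u - V| < 6) : pt z u ≠ pt z V := by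
  intro h
  obtain ⟨n, hn⟩ := pt_eq' h
  have h3 : u - V = 6 * (n : ℝ) := by linarith
  rw [h3, abs_mul] at h2
  have h4 : |(n : ℝ)| < 1 := by
    have : |(6 : ℝ)| = 6 := by norm_num
    rw [this] at h2; linarith
  have h5 : n = 0 := by
    have : |n| < 1 := by exact_mod_cast h4
    exact Int.abs_lt_one_iff.1 this
  rw [h5] at hn
  exact h1 (by simpa using hn)

theorem exists_pt' {z v : ℂ} (hv : dist v z = 1) : ∃ g, v = pt z g := by
  obtain ⟨θ, hθ⟩ := exists_cis (u := v - z) (by rw [← dist_eq_norm]; exact hv)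
  refine ⟨θ * (3 / Real.pi), ?_⟩
  have : θ * (3 / Real.pi) * (Real.pi / 3) = θ := by
    have := Real.pi_ne_zero
    field_simp
  unfold pt
  rw [this, ← hθ]; ring

namespace Side

theorem tau (H : Side U T z p K x y d τ s) : τ = 1 ∨ τ = -1 := by
  rcases H.sgn with h | h
  · exact Or.inl h.1
  · exact Or.inr h.1

/-- **Palettes of the cells.** -/
theorem acc (H : Side U T z p K x y d τ s) {j l : Fin 6} {M : Finset (Fin 6)}
    (hM : ∀ i ∈ T (brn z d τ j l 0), ∃ m ∈ M, p m = i)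
    (hnd : ∀ᶠ e in 𝓝[>] (0 : ℝ), brn z d τ j l e ≠ z ∧
      pt z (d - τ * e + (j.val : ℝ)) ≠ pt z (d + (l.val : ℝ))) :
    ∀ᶠ e in 𝓝[>] (0 : ℝ), ∃ᶠ b in 𝓝 d, ∀ i ∈ T (cell z (d - τ * e + (j.val : ℝ)) (b + (l.val : ℝ))),
      ∃ m ∈ M \ (x j ∪ y l), p m = i := by
  have h1 : ∀ᶠ e in 𝓝[>] (0 : ℝ), ∀ᶠ w in 𝓝 (brn z d τ j l e), T w ⊆ T (brn z d τ j l 0) :=
    ((continuous_brn z d τ j l).tendsto 0).eventually
      (eventually_eventually_nhds.2 (H.irr.nhd _)) |>.filter_mono nhdsWithin_le_nhds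
  filter_upwards [h1, hnd, H.perx] with e he1 he2 he3
  have hc := (continuous_brn' z (d - τ * e + (j.val : ℝ)) l).tendsto d
  have hc2 : Continuous fun b : ℝ => pt z (b + (l.val : ℝ)) := (continuous_pt z).comp (by fun_prop)
  have e1 := hc.eventually he1
  have e2 := hc.eventually (isOpen_ne.mem_nhds he2.1)
  have e3 := (hc2.tendsto d).eventually (isOpen_ne.mem_nhds (Ne.symm he2.2))
  refine (H.pery.and_eventually (e1.and (e2.and e3))).mono ?_
  rintro b ⟨hb, hb1, hb2, hb3⟩ i hi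
  obtain ⟨m, hm, rfl⟩ := hM i (hb1 hi)
  refine ⟨m, Finset.mem_sdiff.2 ⟨hm, fun hcon => ?_⟩, rfl⟩
  rcases Finset.mem_union.1 hcon with h5 | h5
  · exact cell_free H.irr (he3 j m h5) hb2 (Ne.symm hb3) (H.irr.sub _ hi)
  · rw [cell_comm] at hi hb2
    exact cell_free H.irr (hb l m h5) hb2 hb3 (H.irr.sub _ hi)

/-- a colour on the branch -/
theorem mem_of (H : Side U T z p K x y d τ s) {j l : Fin 6} {c : Fin 6} {e : ℝ}
    (h1 : ∃ᶠ b in 𝓝 d, ∀ i ∈ T (cell z (d - τ * e + (j.val : ℝ)) (b + (l.val : ℝ))),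
      ∃ m ∈ ({c} : Finset (Fin 6)), p m = i) : p c ∈ T (brn z d τ j l e) := by
  have hc := (continuous_brn' z (d - τ * e + (j.val : ℝ)) l).tendsto d
  refine (H.irr.closed (p c)).mem_of_frequently_of_tendsto (h1.mono fun b hb => ?_) hc
  obtain ⟨i, hi⟩ := H.irr.ne (cell z (d - τ * e + (j.val : ℝ)) (b + (l.val : ℝ)))
  obtain ⟨m, hm, hmi⟩ := hb i hi
  rw [Finset.mem_singleton] at hm
  show p c ∈ T _
  rw [← hm, hmi]; exact hi

/-- the cell between the neighbours, with its base point -/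
theorem brn_nb (H : Side U T z p K x y d τ s) (j : Fin 6) :
    brn z d τ (j + s) (j - s) 0 = pt z (d + (j.val : ℝ)) := by
  unfold brn
  rw [mul_zero, sub_zero, cell_nb H.sgn]

theorem brn_nb' (H : Side U T z p K x y d τ s) (j : Fin 6) :
    brn z d τ (j - s) (j + s) 0 = pt z (d + (j.val : ℝ)) := by
  unfold brn
  rw [mul_zero, sub_zero, cell_comm, cell_nb H.sgn]

theorem cos_lt {e : ℝ} (h0 : 0 < e) (h1 : e < 1) :
    -(1 / 2) < Real.cos ((2 - e) * (Real.pi / 3)) ∧ Real.cos ((2 + e) * (Real.pi / 3)) < -(1 / 2) := by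
  have hpi := Real.pi_pos
  have c2 : Real.cos (2 * (Real.pi / 3)) = -(1 / 2) := by
    have : 2 * (Real.pi / 3) = Real.pi - Real.pi / 3 := by ring
    rw [this, Real.cos_pi_sub, Real.cos_pi_div_three]
  constructor
  · rw [← c2]
    exact Real.cos_lt_cos_of_nonneg_of_le_pi (by nlinarith) (by nlinarith) (by nlinarith)
  · rw [← c2]
    exact Real.cos_lt_cos_of_nonneg_of_le_pi (by nlinarith) (by nlinarith) (by nlinarith)

theorem dist_out (H : Side U T z p K x y d τ s) (j : Fin 6) {e : ℝ} (h0 : 0 < e) (h1 : e < 1) :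
    1 < dist (brn z d τ (j + s) (j - s) e) z := by
  have h2 : brn z d τ (j + s) (j - s) e =
      cell z (d - τ * e + (j.val : ℝ) + τ) (d + (j.val : ℝ) - τ) := by
    unfold brn cell
    rw [pt_s H.sgn, pt_s_neg H.sgn]
  have h3 := dist_cell z (d - τ * e + (j.val : ℝ) + τ) (d + (j.val : ℝ) - τ)
  have h4 : Real.cos ((d - τ * e + (j.val : ℝ) + τ - (d + (j.val : ℝ) - τ)) * (Real.pi / 3)) =
      Real.cos ((2 - e) * (Real.pi / 3)) := by
    rcases H.tau with rfl | rfl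
    · congr 1; ring
    · rw [← Real.cos_neg]; congr 1; ring
  rw [← h2, h4] at h3
  have h5 := (cos_lt h0 h1).1
  nlinarith [dist_nonneg (x := brn z d τ (j + s) (j - s) e) (y := z)]

theorem dist_in (H : Side U T z p K x y d τ s) (j : Fin 6) {e : ℝ} (h0 : 0 < e) (h1 : e < 1) :
    dist (brn z d τ (j - s) (j + s) e) z < 1 := by
  have h2 : brn z d τ (j - s) (j + s) e =
      cell z (d - τ * e + (j.val : ℝ) - τ) (d + (j.val : ℝ) + τ) := by
    unfold brn cell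
    rw [pt_s H.sgn, pt_s_neg H.sgn]
  have h3 := dist_cell z (d - τ * e + (j.val : ℝ) - τ) (d + (j.val : ℝ) + τ)
  have h4 : Real.cos ((d - τ * e + (j.val : ℝ) - τ - (d + (j.val : ℝ) + τ)) * (Real.pi / 3)) =
      Real.cos ((2 + e) * (Real.pi / 3)) := by
    rcases H.tau with rfl | rfl
    · rw [← Real.cos_neg]; congr 1; ring
    · congr 1; ring
  rw [← h2, h4] at h3
  have h5 := (cos_lt h0 h1).2
  nlinarith [dist_nonneg (x := brn z d τ (j - s) (j + s) e) (y := z)]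

theorem ne_of_dist {v : ℂ} (hz : dist v z ≠ 0) : v ≠ z := fun h => hz (by rw [h, dist_self])

/-- nondegenerate cells near the positions -/
theorem nd_nb (H : Side U T z p K x y d τ s) (j : Fin 6) :
    (∀ᶠ e in 𝓝[>] (0 : ℝ), brn z d τ (j + s) (j - s) e ≠ z ∧
      pt z (d - τ * e + ((j + s : Fin 6).val : ℝ)) ≠ pt z (d + ((j - s : Fin 6).val : ℝ))) ∧
    (∀ᶠ e in 𝓝[>] (0 : ℝ), brn z d τ (j - s) (j + s) e ≠ z ∧
      pt z (d - τ * e + ((j - s : Fin 6).val : ℝ)) ≠ pt z (d + ((j + s : Fin 6).val : ℝ))) := by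
  have hsm : ∀ᶠ e in 𝓝[>] (0 : ℝ), e ∈ Ioo (0 : ℝ) 1 := Ioo_mem_nhdsGT one_pos
  have hb : ∀ (a b : Fin 6), brn z d τ a b 0 = pt z (d + (j.val : ℝ)) →
      ∀ᶠ e in 𝓝[>] (0 : ℝ), brn z d τ a b e ≠ z := by
    intro a b h0
    have h1 : brn z d τ a b 0 ≠ z := by
      rw [h0]
      intro h2
      have := dist_pt z (d + (j.val : ℝ))
      rw [h2, dist_self] at this
      exact zero_ne_one this
    exact (((continuous_brn z d τ a b).tendsto 0).eventually (isOpen_ne.mem_nhds h1)).filter_mono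
      nhdsWithin_le_nhds
  constructor
  · filter_upwards [hb _ _ (H.brn_nb j), hsm] with e h1 h2
    refine ⟨h1, ?_⟩
    rw [pt_s H.sgn, pt_s_neg H.sgn]
    rcases H.tau with rfl | rfl
    · exact pt_ne (by intro h; linarith [h2.2]) (by rw [abs_lt]; constructor <;> linarith [h2.1, h2.2])
    · exact pt_ne (by intro h; linarith [h2.2]) (by rw [abs_lt]; constructor <;> linarith [h2.1, h2.2])
  · filter_upwards [hb _ _ (H.brn_nb' j), hsm] with e h1 h2
    refine ⟨h1, ?_⟩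
    rw [pt_s H.sgn, pt_s_neg H.sgn]
    rcases H.tau with rfl | rfl
    · exact pt_ne (by intro h; linarith [h2.1]) (by rw [abs_lt]; constructor <;> linarith [h2.1, h2.2])
    · exact pt_ne (by intro h; linarith [h2.1]) (by rw [abs_lt]; constructor <;> linarith [h2.1, h2.2])

theorem mem_union_of_eq {A B C : Finset (Fin 6)} {c : Fin 6} (h : (A ∪ B) \ C = {c}) : c ∈ A ∪ B := by
  have : c ∈ (A ∪ B) \ C := by rw [h]; exact Finset.mem_singleton_self c
  exact (Finset.mem_sdiff.1 this).1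

/-- **Outer cells.** -/
theorem ex_out (H : Side U T z p K x y d τ s) {j c : Fin 6} (h3 : (x j ∪ y j).card = 3)
    (hc : outC x y s j = {c}) :
    ∀ᶠ w in 𝓝 z, p c ∈ Pal U w → 1 ≤ dist (pt z (d + (j.val : ℝ))) w := by
  have hM : ∀ i ∈ T (brn z d τ (j + s) (j - s) 0), ∃ m ∈ x j ∪ y j, p m = i := by
    rw [H.brn_nb]; exact H.tri j h3
  have h1 := H.acc hM (H.nd_nb j).1
  have h2 : ∀ᶠ e in 𝓝[>] (0 : ℝ), p c ∈ T (brn z d τ (j + s) (j - s) e) := by
    filter_upwards [h1] with e he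
    refine H.mem_of ?_
    unfold outC at hc
    rw [hc] at he
    exact he
  obtain ⟨e0, he0, hs⟩ := (mem_nhdsGT_iff_exists_Ioo_subset (a := (0 : ℝ))).1
    (h2.and (Ioo_mem_nhdsGT one_pos))
  have he0 : (0 : ℝ) < e0 := he0
  set e1 := e0 / 2 with he1
  have h4 : ∀ e ∈ Ioc (0 : ℝ) e1, p c ∈ T (brn z d τ (j + s) (j - s) e) := fun e he =>
    (hs ⟨he.1, by linarith [he.2]⟩).1
  have h5 : e1 ∈ Ioo (0 : ℝ) 1 := (hs ⟨by positivity, by linarith⟩).2
  have hout := H.dist_out j h5.1 h5.2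
  have h6 : ∀ᶠ w in 𝓝 z, 1 < dist (brn z d τ (j + s) (j - s) e1) w :=
    (isOpen_lt continuous_const (by fun_prop)).mem_nhds hout
  filter_upwards [h6] with w hw hcw
  by_contra hcon
  push Not at hcon
  refine sweep H.irr (V := brn z d τ (j + s) (j - s) '' Icc 0 e1)
    (isPreconnected_Icc.image _ (continuous_brn z d τ _ _).continuousOn) (c := p c) ?_
    (v1 := brn z d τ (j + s) (j - s) 0) (v2 := brn z d τ (j + s) (j - s) e1)
    ⟨0, ⟨le_rfl, h5.1.le⟩, rfl⟩ ⟨e1, ⟨h5.1.le, le_rfl⟩, rfl⟩ (by rw [H.brn_nb]; exact hcon) hw hcw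
  rintro _ ⟨e, he, rfl⟩
  rcases he.1.eq_or_lt with h7 | h7
  · rw [← h7, H.brn_nb]
    exact H.mem j c (mem_union_of_eq hc)
  · exact h4 e ⟨h7, he.2⟩

/-- **Inner cells.** -/
theorem ex_in (H : Side U T z p K x y d τ s) {j c : Fin 6} (h3 : (x j ∪ y j).card = 3)
    (hc : inC x y s j = {c}) :
    ∀ᶠ w in 𝓝 z, p c ∈ Pal U w → dist (pt z (d + (j.val : ℝ))) w ≤ 1 := by
  have hM : ∀ i ∈ T (brn z d τ (j - s) (j + s) 0), ∃ m ∈ x j ∪ y j, p m = i := by
    rw [H.brn_nb']; exact H.tri j h3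
  have h1 := H.acc hM (H.nd_nb j).2
  have h2 : ∀ᶠ e in 𝓝[>] (0 : ℝ), p c ∈ T (brn z d τ (j - s) (j + s) e) := by
    filter_upwards [h1] with e he
    refine H.mem_of ?_
    unfold inC at hc
    rw [hc] at he
    exact he
  obtain ⟨e0, he0, hs⟩ := (mem_nhdsGT_iff_exists_Ioo_subset (a := (0 : ℝ))).1
    (h2.and (Ioo_mem_nhdsGT one_pos))
  have he0 : (0 : ℝ) < e0 := he0
  set e1 := e0 / 2 with he1
  have h4 : ∀ e ∈ Ioc (0 : ℝ) e1, p c ∈ T (brn z d τ (j - s) (j + s) e) := fun e he =>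
    (hs ⟨he.1, by linarith [he.2]⟩).1
  have h5 : e1 ∈ Ioo (0 : ℝ) 1 := (hs ⟨by positivity, by linarith⟩).2
  have hin := H.dist_in j h5.1 h5.2
  have h6 : ∀ᶠ w in 𝓝 z, dist (brn z d τ (j - s) (j + s) e1) w < 1 :=
    (isOpen_lt (by fun_prop) continuous_const).mem_nhds hin
  filter_upwards [h6] with w hw hcw
  by_contra hcon
  push Not at hcon
  refine sweep H.irr (V := brn z d τ (j - s) (j + s) '' Icc 0 e1)
    (isPreconnected_Icc.image _ (continuous_brn z d τ _ _).continuousOn) (c := p c) ?_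
    (v1 := brn z d τ (j - s) (j + s) e1) (v2 := brn z d τ (j - s) (j + s) 0)
    ⟨e1, ⟨h5.1.le, le_rfl⟩, rfl⟩ ⟨0, ⟨le_rfl, h5.1.le⟩, rfl⟩ hw (by rw [H.brn_nb']; exact hcon) hcw
  rintro _ ⟨e, he, rfl⟩
  rcases he.1.eq_or_lt with h7 | h7
  · rw [← h7, H.brn_nb']
    exact H.mem j c (mem_union_of_eq hc)
  · exact h4 e ⟨h7, he.2⟩

/-! ### the branches at the centre -/

/-- the branch at the position `k` -/
theorem brn_opp (H : Side U T z p K x y d τ s) (k : Fin 6) (e : ℝ) :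
    brn z d τ k (k + 3) e = z + (pt z (d - τ * e + (k.val : ℝ)) - pt z (d + (k.val : ℝ))) := by
  unfold brn; rw [cell_opp]

theorem brn_opp_zero (H : Side U T z p K x y d τ s) (k : Fin 6) : brn z d τ k (k + 3) 0 = z := by
  rw [H.brn_opp, mul_zero, sub_zero]; ring

theorem nd_opp (H : Side U T z p K x y d τ s) (k : Fin 6) :
    ∀ᶠ e in 𝓝[>] (0 : ℝ), brn z d τ k (k + 3) e ≠ z ∧
      pt z (d - τ * e + (k.val : ℝ)) ≠ pt z (d + ((k + 3 : Fin 6).val : ℝ)) := by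
  have hsm : ∀ᶠ e in 𝓝[>] (0 : ℝ), e ∈ Ioo (0 : ℝ) 1 := Ioo_mem_nhdsGT one_pos
  filter_upwards [hsm] with e he
  constructor
  · rw [H.brn_opp]
    intro h1
    have h2 : pt z (d - τ * e + (k.val : ℝ)) = pt z (d + (k.val : ℝ)) := by
      linear_combination h1
    refine pt_ne (z := z) (u := d - τ * e + (k.val : ℝ)) (V := d + (k.val : ℝ)) ?_ ?_ h2
    · rcases H.tau with rfl | rfl
      · intro h; linarith [he.1]
      · intro h; linarith [he.1]
    · rcases H.tau with rfl | rfl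
      · rw [abs_lt]; constructor <;> linarith [he.1, he.2]
      · rw [abs_lt]; constructor <;> linarith [he.1, he.2]
  · rw [pt_val]
    have h3 : ((3 : Fin 6).val : ℝ) = 3 := by norm_num
    rw [h3]
    refine pt_ne ?_ ?_
    · rcases H.tau with rfl | rfl
      · intro h; linarith [he.1]
      · intro h; linarith [he.2]
    · rcases H.tau with rfl | rfl
      · rw [abs_lt]; constructor <;> linarith [he.1, he.2]
      · rw [abs_lt]; constructor <;> linarith [he.1, he.2]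

theorem evlt {f g : ℝ → ℝ} (hf : Continuous f) (hg : Continuous g) (h : f 0 < g 0) :
    ∀ᶠ e in 𝓝[>] (0 : ℝ), f e < g e := by
  have ho : IsOpen {e : ℝ | f e < g e} := isOpen_lt hf hg
  have h1 : {e : ℝ | f e < g e} ∈ 𝓝 (0 : ℝ) := ho.mem_nhds h
  exact mem_nhdsWithin_of_mem_nhds h1

/-- the two signs -/
theorem sin_small : ∀ᶠ e in 𝓝[>] (0 : ℝ), 0 < Real.sin (e * (Real.pi / 6)) ∧
    Real.sin (e * (Real.pi / 6)) < 1 / 2 ∧
    Real.sin (e * (Real.pi / 6)) < Real.sin ((1 - e / 2) * (Real.pi / 3)) ∧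
    Real.sin (e * (Real.pi / 6)) < Real.sin ((2 - e / 2) * (Real.pi / 3)) ∧
    0 < Real.sin ((1 + e / 2) * (Real.pi / 3)) ∧ 0 < Real.sin ((2 + e / 2) * (Real.pi / 3)) := by
  have hpi := Real.pi_pos
  have hs3 : (0 : ℝ) < √3 := by positivity
  have s1 : Real.sin (1 * (Real.pi / 3)) = √3 / 2 := by rw [one_mul, Real.sin_pi_div_three]
  have s2 : Real.sin (2 * (Real.pi / 3)) = √3 / 2 := by
    have : 2 * (Real.pi / 3) = Real.pi - Real.pi / 3 := by ring
    rw [this, Real.sin_pi_sub, Real.sin_pi_div_three]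
  have c0 : Continuous fun e : ℝ => Real.sin (e * (Real.pi / 6)) := by fun_prop
  have c1 : Continuous fun e : ℝ => Real.sin ((1 - e / 2) * (Real.pi / 3)) := by fun_prop
  have c2 : Continuous fun e : ℝ => Real.sin ((2 - e / 2) * (Real.pi / 3)) := by fun_prop
  have c3 : Continuous fun e : ℝ => Real.sin ((1 + e / 2) * (Real.pi / 3)) := by fun_prop
  have c4 : Continuous fun e : ℝ => Real.sin ((2 + e / 2) * (Real.pi / 3)) := by fun_prop
  have hsm : ∀ᶠ e in 𝓝[>] (0 : ℝ), e ∈ Ioo (0 : ℝ) 1 := Ioo_mem_nhdsGT one_pos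
  have g1 : ∀ᶠ e in 𝓝[>] (0 : ℝ), Real.sin (e * (Real.pi / 6)) < 1 / 2 :=
    (evlt c0 continuous_const (by norm_num))
  have g2 : ∀ᶠ e in 𝓝[>] (0 : ℝ), Real.sin (e * (Real.pi / 6)) < Real.sin ((1 - e / 2) * (Real.pi / 3)) := by
    refine evlt c0 c1 ?_
    show Real.sin (0 * (Real.pi / 6)) < Real.sin ((1 - 0 / 2) * (Real.pi / 3))
    rw [zero_mul, Real.sin_zero, zero_div, sub_zero, s1]; positivity
  have g3 : ∀ᶠ e in 𝓝[>] (0 : ℝ), Real.sin (e * (Real.pi / 6)) < Real.sin ((2 - e / 2) * (Real.pi / 3)) := by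
    refine evlt c0 c2 ?_
    show Real.sin (0 * (Real.pi / 6)) < Real.sin ((2 - 0 / 2) * (Real.pi / 3))
    rw [zero_mul, Real.sin_zero, zero_div, sub_zero, s2]; positivity
  have g4 : ∀ᶠ e in 𝓝[>] (0 : ℝ), 0 < Real.sin ((1 + e / 2) * (Real.pi / 3)) := by
    refine evlt continuous_const c3 ?_
    show 0 < Real.sin ((1 + 0 / 2) * (Real.pi / 3))
    rw [zero_div, add_zero, s1]; positivity
  have g5 : ∀ᶠ e in 𝓝[>] (0 : ℝ), 0 < Real.sin ((2 + e / 2) * (Real.pi / 3)) := by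
    refine evlt continuous_const c4 ?_
    show 0 < Real.sin ((2 + 0 / 2) * (Real.pi / 3))
    rw [zero_div, add_zero, s2]; positivity
  filter_upwards [hsm, g1, g2, g3, g4, g5] with e he a1 a2 a3 a4 a5
  refine ⟨Real.sin_pos_of_pos_of_lt_pi (by nlinarith [he.1]) (by nlinarith [he.2]), a1, a2, a3, a4, a5⟩

theorem dist_lt_of_sq {a b : ℂ} (h : dist a b ^ 2 < 1) : dist a b < 1 := by
  nlinarith [dist_nonneg (x := a) (y := b)]

theorem lt_dist_of_sq {a b : ℂ} (h : 1 < dist a b ^ 2) : 1 < dist a b := by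
  nlinarith [dist_nonneg (x := a) (y := b)]

/-- the branch `k` is inside the circles about the positions `k - s`, `k - 2 s` and outside those about
`k + s`, `k + 2 s` -/
theorem geo (H : Side U T z p K x y d τ s) (k : Fin 6) : ∀ᶠ e in 𝓝[>] (0 : ℝ), ∀ j : Fin 6,
    ((k = j + s ∨ k = j + 2 * s) → dist (brn z d τ k (k + 3) e) (pt z (d + (j.val : ℝ))) < 1) ∧
    ((k = j - s ∨ k = j - 2 * s) → 1 < dist (brn z d τ k (k + 3) e) (pt z (d + (j.val : ℝ)))) := by
  filter_upwards [sin_small] with e ⟨a0, a1, a2, a3, a4, a5⟩ j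
  have key : ∀ q : ℝ, (∀ t : ℝ, pt z (t + (k.val : ℝ)) = pt z (t + (j.val : ℝ) + q * τ)) →
      dist (brn z d τ k (k + 3) e) (pt z (d + (j.val : ℝ))) ^ 2 =
        1 + 4 * Real.sin (e * (Real.pi / 6)) *
          (Real.sin (e * (Real.pi / 6)) - Real.sin ((q - e / 2) * (Real.pi / 3))) := by
    intro q hq
    rw [H.brn_opp, hq, hq, dist_br]
    have e1 : (d - τ * e + (j.val : ℝ) + q * τ - (d + (j.val : ℝ) + q * τ)) * (Real.pi / 6) =
        -(τ * (e * (Real.pi / 6))) := by ring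
    have e2 : ((d - τ * e + (j.val : ℝ) + q * τ + (d + (j.val : ℝ) + q * τ)) / 2 -
        (d + (j.val : ℝ))) * (Real.pi / 3) = τ * ((q - e / 2) * (Real.pi / 3)) := by ring
    rw [e1, e2]
    rcases H.tau with rfl | rfl
    · rw [one_mul, one_mul, Real.sin_neg]; ring
    · rw [neg_one_mul, neg_one_mul, neg_neg, Real.sin_neg]; ring
  constructor
  · rintro (hk | hk)
    · have h1 := key 1 (fun t => by rw [hk, pt_s H.sgn, one_mul])
      refine dist_lt_of_sq ?_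
      rw [h1]
      nlinarith [mul_pos a0 (sub_pos.2 a2)]
    · have h1 := key 2 (fun t => by rw [hk, pt_s2 H.sgn])
      refine dist_lt_of_sq ?_
      rw [h1]
      nlinarith [mul_pos a0 (sub_pos.2 a3)]
  · rintro (hk | hk)
    · have h1 := key (-1) (fun t => by rw [hk, pt_s_neg H.sgn, neg_one_mul, sub_eq_add_neg])
      refine lt_dist_of_sq ?_
      have e3 : Real.sin ((-1 - e / 2) * (Real.pi / 3)) = -Real.sin ((1 + e / 2) * (Real.pi / 3)) := by
        rw [← Real.sin_neg]; congr 1; ring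
      rw [h1, e3]
      nlinarith [mul_pos a0 a0, mul_pos a0 a4]
    · have h1 := key (-2) (fun t => by rw [hk, pt_s2_neg H.sgn]; congr 1; ring)
      refine lt_dist_of_sq ?_
      have e3 : Real.sin ((-2 - e / 2) * (Real.pi / 3)) = -Real.sin ((2 + e / 2) * (Real.pi / 3)) := by
        rw [← Real.sin_neg]; congr 1; ring
      rw [h1, e3]
      nlinarith [mul_pos a0 a0, mul_pos a0 a5]

/-- **Palettes of the branches.** -/
theorem ray (H : Side U T z p K x y d τ s) (k : Fin 6) : ∀ᶠ e in 𝓝[>] (0 : ℝ), ∃ᶠ b in 𝓝 d,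
    ∀ i ∈ T (cell z (d - τ * e + (k.val : ℝ)) (b + ((k + 3 : Fin 6).val : ℝ))),
      ∃ m ∈ br K x y s k, p m = i := by
  have hM : ∀ i ∈ T (brn z d τ k (k + 3) 0), ∃ m ∈ K, p m = i := by
    rw [H.brn_opp_zero]; exact fun i hi => (H.pal i).1 hi
  have h1 := H.acc hM (H.nd_opp k)
  have h2 : ∀ᶠ w in 𝓝 z, ∀ j c : Fin 6, (x j ∪ y j).card = 3 →
      (outC x y s j = {c} → p c ∈ Pal U w → 1 ≤ dist (pt z (d + (j.val : ℝ))) w) ∧
      (inC x y s j = {c} → p c ∈ Pal U w → dist (pt z (d + (j.val : ℝ))) w ≤ 1) := by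
    rw [eventually_all]
    intro j
    rw [eventually_all]
    intro c
    by_cases h3 : (x j ∪ y j).card = 3
    · have e1 : ∀ᶠ w in 𝓝 z, outC x y s j = {c} → p c ∈ Pal U w →
          1 ≤ dist (pt z (d + (j.val : ℝ))) w := by
        by_cases hc : outC x y s j = {c}
        · filter_upwards [H.ex_out h3 hc] with w hw _ using hw
        · exact Eventually.of_forall fun w h => absurd h hc
      have e2 : ∀ᶠ w in 𝓝 z, inC x y s j = {c} → p c ∈ Pal U w →
          dist (pt z (d + (j.val : ℝ))) w ≤ 1 := by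
        by_cases hc : inC x y s j = {c}
        · filter_upwards [H.ex_in h3 hc] with w hw _ using hw
        · exact Eventually.of_forall fun w h => absurd h hc
      filter_upwards [e1, e2] with w a1 a2 _ using ⟨a1, a2⟩
    · exact Eventually.of_forall fun w h => absurd h h3
  have h2' := (((continuous_brn z d τ k (k + 3)).tendsto 0).eventually (by
    rw [H.brn_opp_zero]; exact eventually_eventually_nhds.2 h2)).filter_mono
    (nhdsWithin_le_nhds (s := Ioi (0 : ℝ)))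
  filter_upwards [h1, h2', H.geo k] with e a1 a2 a3
  have hc := (continuous_brn' z (d - τ * e + (k.val : ℝ)) (k + 3)).tendsto d
  have b1 := hc.eventually a2
  have b2 : ∀ᶠ w in 𝓝 (brn z d τ k (k + 3) e), ∀ j : Fin 6,
      ((k = j + s ∨ k = j + 2 * s) → dist w (pt z (d + (j.val : ℝ))) < 1) ∧
      ((k = j - s ∨ k = j - 2 * s) → 1 < dist w (pt z (d + (j.val : ℝ)))) := by
    rw [eventually_all]
    intro j
    have c1 : ∀ᶠ w in 𝓝 (brn z d τ k (k + 3) e), (k = j + s ∨ k = j + 2 * s) →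
        dist w (pt z (d + (j.val : ℝ))) < 1 := by
      by_cases hk : k = j + s ∨ k = j + 2 * s
      · have ho : IsOpen {w : ℂ | dist w (pt z (d + (j.val : ℝ))) < 1} :=
          isOpen_lt (by fun_prop) continuous_const
        filter_upwards [ho.mem_nhds ((a3 j).1 hk)] with w hw _ using hw
      · exact Eventually.of_forall fun w h => absurd h hk
    have c2 : ∀ᶠ w in 𝓝 (brn z d τ k (k + 3) e), (k = j - s ∨ k = j - 2 * s) →
        1 < dist w (pt z (d + (j.val : ℝ))) := by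
      by_cases hk : k = j - s ∨ k = j - 2 * s
      · have ho : IsOpen {w : ℂ | 1 < dist w (pt z (d + (j.val : ℝ)))} :=
          isOpen_lt continuous_const (by fun_prop)
        filter_upwards [ho.mem_nhds ((a3 j).2 hk)] with w hw _ using hw
      · exact Eventually.of_forall fun w h => absurd h hk
    filter_upwards [c1, c2] with w w1 w2 using ⟨w1, w2⟩
  have b2' := hc.eventually b2
  refine (a1.and_eventually (b1.and b2')).mono ?_
  rintro b ⟨hb1, hb2, hb3⟩ i hi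
  obtain ⟨m, hm, rfl⟩ := hb1 i hi
  refine ⟨m, ?_, rfl⟩
  unfold br
  rw [Finset.mem_filter]
  refine ⟨hm, ?_⟩
  rintro ⟨j, h3, h4⟩
  have hPal := H.irr.sub _ hi
  rcases h4 with ⟨ho, hk⟩ | ⟨ho, hk⟩
  · have w1 := (hb2 j m h3).1 ho hPal
    have w2 := (hb3 j).1 hk
    rw [dist_comm] at w1
    exact absurd w2 (not_lt.2 w1)
  · have w1 := (hb2 j m h3).2 ho hPal
    have w2 := (hb3 j).2 hk
    rw [dist_comm] at w1
    exact absurd w2 (not_lt.2 w1)

theorem ray_mem (H : Side U T z p K x y d τ s) {k c : Fin 6} (hk : br K x y s k = {c}) :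
    ∀ᶠ e in 𝓝[>] (0 : ℝ), p c ∈ T (brn z d τ k (k + 3) e) := by
  filter_upwards [H.ray k] with e he
  refine H.mem_of ?_
  rw [hk] at he
  exact he

theorem ray_empty (H : Side U T z p K x y d τ s) {k : Fin 6} (hk : br K x y s k = ∅) : False := by
  obtain ⟨e, he⟩ := (H.ray k).exists
  obtain ⟨b, hb⟩ := he.exists
  obtain ⟨i, hi⟩ := H.irr.ne (cell z (d - τ * e + (k.val : ℝ)) (b + ((k + 3 : Fin 6).val : ℝ)))
  obtain ⟨m, hm, -⟩ := hb i hi
  rw [hk] at hm
  exact absurd hm (Finset.notMem_empty m)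

theorem mem_center (H : Side U T z p K x y d τ s) {k c : Fin 6} (hk : br K x y s k = {c}) :
    p c ∈ T z := by
  have h1 : c ∈ br K x y s k := by rw [hk]; exact Finset.mem_singleton_self c
  unfold br at h1
  rw [Finset.mem_filter, Finset.mem_sdiff] at h1
  exact (H.pal _).2 ⟨c, h1.1.1, rfl⟩

/-- the branch as a connected set -/
theorem conn (z : ℂ) (d τ : ℝ) (k : Fin 6) (e : ℝ) :
    IsPreconnected (brn z d τ k (k + 3) '' Icc 0 e) :=
  isPreconnected_Icc.image _ (continuous_brn z d τ _ _).continuousOn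

theorem on_branch (H : Side U T z p K x y d τ s) {k c : Fin 6} {e : ℝ}
    (hz : p c ∈ T z) (he : ∀ e' ∈ Ioc (0 : ℝ) e, p c ∈ T (brn z d τ k (k + 3) e')) :
    ∀ v ∈ brn z d τ k (k + 3) '' Icc 0 e, p c ∈ T v := by
  rintro _ ⟨e', h1, rfl⟩
  rcases h1.1.eq_or_lt with h2 | h2
  · rw [← h2, H.brn_opp_zero]; exact hz
  · exact he e' ⟨h2, h1.2⟩

/-- **The event is impossible.** -/
theorem false (H : Side U T z p K x y d τ s) (hd : Dead K x y s) : False := by
  rcases hd with ⟨k, hk⟩ | ⟨k, c, h0, h2, h4⟩ | ⟨j, k, l, c, hk, hl, hc, h1, h2⟩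
  · exact H.ray_empty hk
  · have hz := H.mem_center h0
    obtain ⟨q, hq, hcq⟩ := H.irr.partner_XX H.xx (p c)
    obtain ⟨g, rfl⟩ := exists_pt' (z := z) (v := q) (by rw [dist_comm]; exact hq)
    obtain ⟨e0, he0, hs⟩ := (mem_nhdsGT_iff_exists_Ioo_subset (a := (0 : ℝ))).1
      ((H.ray_mem h0).and ((H.ray_mem h2).and ((H.ray_mem h4).and sin_small)))
    have he0 : (0 : ℝ) < e0 := he0
    set e1 := e0 / 2 with he1
    have he1' : 0 < e1 := by positivity
    have m0 : ∀ e' ∈ Ioc (0 : ℝ) e1, e' ∈ Ioo (0 : ℝ) e0 := fun e' h => ⟨h.1, by linarith [h.2]⟩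
    have v0 := H.on_branch (k := k) hz fun e' h => (hs (m0 e' h)).1
    have v2 := H.on_branch (k := k + 2) hz fun e' h => (hs (m0 e' h)).2.1
    have v4 := H.on_branch (k := k + 4) hz fun e' h => (hs (m0 e' h)).2.2.1
    obtain ⟨a0, a1, -⟩ := (hs (m0 e1 ⟨he1', le_rfl⟩)).2.2.2
    set V0 := brn z d τ k (k + 3) '' Icc 0 e1 with hV0
    set V2 := brn z d τ (k + 2) (k + 2 + 3) '' Icc 0 e1 with hV2
    set V4 := brn z d τ (k + 4) (k + 4 + 3) '' Icc 0 e1 with hV4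
    have z0 : z ∈ V0 := ⟨0, ⟨le_rfl, he1'.le⟩, H.brn_opp_zero k⟩
    have z2 : z ∈ V2 := ⟨0, ⟨le_rfl, he1'.le⟩, H.brn_opp_zero (k + 2)⟩
    have z4 : z ∈ V4 := ⟨0, ⟨le_rfl, he1'.le⟩, H.brn_opp_zero (k + 4)⟩
    have w0 : brn z d τ k (k + 3) e1 ∈ V0 := ⟨e1, ⟨he1'.le, le_rfl⟩, rfl⟩
    have w2 : brn z d τ (k + 2) (k + 2 + 3) e1 ∈ V2 := ⟨e1, ⟨he1'.le, le_rfl⟩, rfl⟩
    have w4 : brn z d τ (k + 4) (k + 4 + 3) e1 ∈ V4 := ⟨e1, ⟨he1'.le, le_rfl⟩, rfl⟩
    have hV : IsPreconnected (V0 ∪ V2 ∪ V4) :=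
      ((conn z d τ k e1).union z z0 z2 (conn z d τ (k + 2) e1)).union z (Or.inl z0) z4
        (conn z d τ (k + 4) e1)
    have hVc : ∀ v ∈ V0 ∪ V2 ∪ V4, p c ∈ T v := by
      rintro v ((h | h) | h)
      exacts [v0 v h, v2 v h, v4 v h]
    have u0 : brn z d τ k (k + 3) e1 ∈ V0 ∪ V2 ∪ V4 := Or.inl (Or.inl w0)
    have u2 : brn z d τ (k + 2) (k + 2 + 3) e1 ∈ V0 ∪ V2 ∪ V4 := Or.inl (Or.inr w2)
    have u4 : brn z d τ (k + 4) (k + 4 + 3) e1 ∈ V0 ∪ V2 ∪ V4 := Or.inr w4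
    -- distances
    set φ := (d - τ * e1 / 2 + (k.val : ℝ) - g) * (Real.pi / 3) with hφ
    set S := Real.sin (e1 * (Real.pi / 6)) with hS
    have key : ∀ (k' : Fin 6) (q : ℝ), (∀ t : ℝ, pt z (t + (k'.val : ℝ)) = pt z (t + (k.val : ℝ) + q)) →
        dist (brn z d τ k' (k' + 3) e1) (pt z g) ^ 2 =
          1 + 4 * S * (S - τ * Real.sin (φ + q * (Real.pi / 3))) := by
      intro k' q hq
      rw [H.brn_opp, hq, hq, dist_br]
      have e1' : (d - τ * e1 + (k.val : ℝ) + q - (d + (k.val : ℝ) + q)) * (Real.pi / 6) =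
          -(τ * (e1 * (Real.pi / 6))) := by ring
      have e2 : ((d - τ * e1 + (k.val : ℝ) + q + (d + (k.val : ℝ) + q)) / 2 - g) * (Real.pi / 3) =
          φ + q * (Real.pi / 3) := by rw [hφ]; ring
      rw [e1', e2]
      rcases H.tau with rfl | rfl
      · rw [one_mul, Real.sin_neg, ← hS]; ring
      · rw [neg_one_mul, neg_neg, ← hS]; ring
    have d0 := key k 0 (fun t => by rw [add_zero])
    have d2 := key (k + 2) 2 (fun t => by
      rw [pt_val]
      have : ((2 : Fin 6).val : ℝ) = 2 := by norm_num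
      rw [this])
    have d4 := key (k + 4) 4 (fun t => by
      rw [pt_val]
      have : ((4 : Fin 6).val : ℝ) = 4 := by norm_num
      rw [this])
    rw [zero_mul, add_zero] at d0
    obtain ⟨t1, t2⟩ := three_sin φ
    have hin : ∃ v1 ∈ V0 ∪ V2 ∪ V4, dist v1 (pt z g) < 1 := by
      rcases H.tau with hτ | hτ
      · rcases t1 with h | h | h
        · exact ⟨_, u0, dist_lt_of_sq (by rw [d0, hτ]; nlinarith)⟩
        · exact ⟨_, u2, dist_lt_of_sq (by rw [d2, hτ]; nlinarith)⟩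
        · exact ⟨_, u4, dist_lt_of_sq (by rw [d4, hτ]; nlinarith)⟩
      · rcases t2 with h | h | h
        · exact ⟨_, u0, dist_lt_of_sq (by rw [d0, hτ]; nlinarith)⟩
        · exact ⟨_, u2, dist_lt_of_sq (by rw [d2, hτ]; nlinarith)⟩
        · exact ⟨_, u4, dist_lt_of_sq (by rw [d4, hτ]; nlinarith)⟩
    have hout : ∃ v1 ∈ V0 ∪ V2 ∪ V4, 1 < dist v1 (pt z g) := by
      rcases H.tau with hτ | hτ
      · rcases t2 with h | h | h
        · exact ⟨_, u0, lt_dist_of_sq (by rw [d0, hτ]; nlinarith)⟩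
        · exact ⟨_, u2, lt_dist_of_sq (by rw [d2, hτ]; nlinarith)⟩
        · exact ⟨_, u4, lt_dist_of_sq (by rw [d4, hτ]; nlinarith)⟩
      · rcases t1 with h | h | h
        · exact ⟨_, u0, lt_dist_of_sq (by rw [d0, hτ]; nlinarith)⟩
        · exact ⟨_, u2, lt_dist_of_sq (by rw [d2, hτ]; nlinarith)⟩
        · exact ⟨_, u4, lt_dist_of_sq (by rw [d4, hτ]; nlinarith)⟩
    obtain ⟨v1, hv1, dv1⟩ := hin
    obtain ⟨v2', hv2, dv2⟩ := hout
    exact sweep H.irr hV hVc hv1 hv2 dv1 dv2 hcq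
  · have hz := H.mem_center h1
    obtain ⟨e0, he0, hs⟩ := (mem_nhdsGT_iff_exists_Ioo_subset (a := (0 : ℝ))).1
      ((H.ray_mem h1).and ((H.ray_mem h2).and ((H.geo k).and (H.geo l))))
    have he0 : (0 : ℝ) < e0 := he0
    set e1 := e0 / 2 with he1
    have he1' : 0 < e1 := by positivity
    have m0 : ∀ e' ∈ Ioc (0 : ℝ) e1, e' ∈ Ioo (0 : ℝ) e0 := fun e' h => ⟨h.1, by linarith [h.2]⟩
    have vk := H.on_branch (k := k) hz fun e' h => (hs (m0 e' h)).1
    have vl := H.on_branch (k := l) hz fun e' h => (hs (m0 e' h)).2.1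
    obtain ⟨gk, gl⟩ := (hs (m0 e1 ⟨he1', le_rfl⟩)).2.2
    set Vk := brn z d τ k (k + 3) '' Icc 0 e1 with hVk
    set Vl := brn z d τ l (l + 3) '' Icc 0 e1 with hVl
    have zk : z ∈ Vk := ⟨0, ⟨le_rfl, he1'.le⟩, H.brn_opp_zero k⟩
    have zl : z ∈ Vl := ⟨0, ⟨le_rfl, he1'.le⟩, H.brn_opp_zero l⟩
    have hV : IsPreconnected (Vk ∪ Vl) := (conn z d τ k e1).union z zk zl (conn z d τ l e1)
    have hVc : ∀ v ∈ Vk ∪ Vl, p c ∈ T v := by
      rintro v (h | h)
      exacts [vk v h, vl v h]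
    refine sweep H.irr hV hVc (v1 := brn z d τ k (k + 3) e1) (v2 := brn z d τ l (l + 3) e1)
      (Or.inl ⟨e1, ⟨he1'.le, le_rfl⟩, rfl⟩) (Or.inr ⟨e1, ⟨he1'.le, le_rfl⟩, rfl⟩)
      ((gk j).1 hk) ((gl j).2 hl) (H.irr.sub _ (H.mem j c hc))

end Side

end Vale.Agent.P032.S5.H343
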